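import Vale.Agent.Lib.P157.Limit

/-!
# P157: approximation of bounded Borel potentials by smooth compactly supported ones
-/

namespace Vale.Agent.P157

open MeasureTheory ProbabilityTheory Filter Topology
open scoped ContDiff

theorem exists_smooth_approx (f : ℝ → ℝ) (hf : Measurable f) (B : ℝ) (hfB : ∀ t, |f t| ≤ B)
    (ε : ℝ) (hε : 0 < ε) :
    ∃ ψ : ℝ → ℝ, ContDiff ℝ ∞ ψ ∧ HasCompactSupport ψ ∧ (∀ t, |ψ t| ≤ B + 1) ∧
      ∫ t, |f t - ψ t| ∂(gaussianReal 0 1) ≤ ε := by
  set γ := gaussianReal 0 1 with hγ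
  have hB0 : 0 ≤ B := le_trans (abs_nonneg _) (hfB 0)
  have hfi : Integrable f γ := integrable_of_bdd γ f hf B hfB
  obtain ⟨φ, hφc, hφ1, hφcont, -⟩ := hfi.exists_hasCompactSupport_integral_sub_le (half_pos hε)
  -- clamp
  set cl : ℝ → ℝ := fun s => max (-B) (min B s) with hcl
  have hclcont : Continuous cl := continuous_const.max (continuous_const.min continuous_id)
  have hcl0 : cl 0 = 0 := by simp [hcl, hB0]
  set φ' : ℝ → ℝ := cl ∘ φ with hφ'
  have hφ'cont : Continuous φ' := hclcont.comp hφcont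
  have hφ'c : HasCompactSupport φ' := hφc.comp_left hcl0
  have hφ'B : ∀ t, |φ' t| ≤ B := by
    intro t
    simp only [hφ', hcl, Function.comp]
    rw [abs_le]
    exact ⟨le_max_left _ _, max_le (by linarith) (min_le_left _ _)⟩
  have hcmp : ∀ t, |f t - φ' t| ≤ |f t - φ t| := by
    intro t
    have h1 := abs_le.mp (hfB t)
    simp only [hφ', hcl, Function.comp]
    rcases le_total (φ t) B with h | h
    · rw [min_eq_right h]
      rcases le_total (-B) (φ t) with h' | h'
      · rw [max_eq_right h']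
      · rw [max_eq_left h', abs_of_nonneg (by linarith), abs_of_nonneg (by linarith)]
        linarith
    · rw [min_eq_left h, max_eq_right (by linarith), abs_of_nonpos (by linarith),
        abs_of_nonpos (by linarith)]
      linarith
  -- smoothing
  set δ := min (ε / 2) 1 with hδ
  have hδpos : 0 < δ := lt_min (half_pos hε) one_pos
  have huc : UniformContinuous φ' := hφ'c.uniformContinuous_of_continuous hφ'cont
  obtain ⟨r, hr, hrδ⟩ := Metric.uniformContinuous_iff.mp huc δ hδpos
  obtain ⟨ψ, hψs, hψ⟩ := hφ'cont.exists_contDiff_dist_le_of_forall_mem_ball_dist_le hr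
  have hψδ : ∀ a, |ψ a - φ' a| ≤ δ := by
    intro a
    rw [← Real.dist_eq]
    exact hψ a δ fun x hx => (hrδ hx).le
  have hψc : HasCompactSupport ψ := by
    refine HasCompactSupport.intro (hφ'c.isCompact.cthickening (r := r)) fun a ha => ?_
    have hz : ∀ x ∈ Metric.ball a r, φ' x = 0 := by
      intro x hx
      by_contra hne
      apply ha
      have hxs : x ∈ tsupport φ' := subset_tsupport _ hne
      refine Metric.mem_cthickening_of_dist_le a x r _ hxs ?_
      rw [dist_comm]
      exact (Metric.mem_ball.mp hx).le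
    have ha0 : φ' a = 0 := hz a (Metric.mem_ball_self hr)
    have := hψ a 0 fun x hx => by rw [hz x hx, ha0, dist_self]
    rw [ha0] at this
    exact dist_le_zero.mp this
  refine ⟨ψ, hψs, hψc, ?_, ?_⟩
  · intro t
    calc |ψ t| = |(ψ t - φ' t) + φ' t| := by ring_nf
      _ ≤ |ψ t - φ' t| + |φ' t| := abs_add_le _ _
      _ ≤ δ + B := add_le_add (hψδ t) (hφ'B t)
      _ ≤ B + 1 := by linarith [min_le_right (ε / 2) 1]
  · have hψm : Measurable ψ := hψs.continuous.measurable
    have hφm : Measurable φ := hφcont.measurable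
    have i1 : Integrable (fun t => |f t - φ t|) γ := by
      obtain ⟨C, hC⟩ := hφc.exists_bound_of_continuous hφcont
      refine integrable_of_bdd γ _ (hf.sub hφm).abs (B + C) fun t => ?_
      rw [abs_abs]
      calc |f t - φ t| ≤ |f t| + |φ t| := abs_sub _ _
        _ ≤ B + C := add_le_add (hfB t) (by simpa using hC t)
    have i2 : Integrable (fun t => |f t - φ t| + δ) γ := i1.add (integrable_const δ)
    have i3 : Integrable (fun t => |f t - ψ t|) γ := by
      refine integrable_of_bdd γ _ (hf.sub hψm).abs (B + (δ + B)) fun t => ?_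
      rw [abs_abs]
      calc |f t - ψ t| ≤ |f t| + |ψ t| := abs_sub _ _
        _ ≤ B + (δ + B) := by
          refine add_le_add (hfB t) ?_
          calc |ψ t| = |(ψ t - φ' t) + φ' t| := by ring_nf
            _ ≤ |ψ t - φ' t| + |φ' t| := abs_add_le _ _
            _ ≤ δ + B := add_le_add (hψδ t) (hφ'B t)
    calc ∫ t, |f t - ψ t| ∂γ ≤ ∫ t, (|f t - φ t| + δ) ∂γ := by
          refine integral_mono i3 i2 fun t => ?_
          calc |f t - ψ t| = |(f t - φ' t) - (ψ t - φ' t)| := by ring_nf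
            _ ≤ |f t - φ' t| + |ψ t - φ' t| := abs_sub _ _
            _ ≤ |f t - φ t| + δ := add_le_add (hcmp t) (hψδ t)
      _ = (∫ t, |f t - φ t| ∂γ) + δ := by
          rw [integral_add i1 (integrable_const δ)]; simp
      _ ≤ ε / 2 + ε / 2 := add_le_add (by simpa [Real.norm_eq_abs] using hφ1) (min_le_left _ _)
      _ = ε := by ring

/-- **Reduction to smooth compactly supported potentials.** -/
theorem limit_exists_of_smooth (α : ℝ) (hα : 0 ≤ α) (μ : (N : ℕ) → Measure (E N))
    (hμ : ∀ N, 0 < N → IsProbabilityMeasure (μ N) ∧ ∀ᵐ x ∂(μ N), ‖x‖ ^ 2 = N)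
    (hyp : ∀ ψ : ℝ → ℝ, ContDiff ℝ ∞ ψ → HasCompactSupport ψ →
      ∃ ℓ : ℝ, Tendsto (fun N => meanPressure α N (μ N) ψ) atTop (𝓝 ℓ))
    (f : ℝ → ℝ) (hf : Measurable f) (hfb : ∃ B : ℝ, ∀ t, |f t| ≤ B) :
    ∃ ℓ : ℝ, Tendsto (fun N => meanPressure α N (μ N) f) atTop (𝓝 ℓ) := by
  obtain ⟨B, hfB⟩ := hfb
  refine limit_exists_of_approx α hα μ hμ f hf (B + 1) (fun t => by linarith [hfB t]) ?_
  intro ε hε
  obtain ⟨ψ, hs, hc, hb, h1⟩ := exists_smooth_approx f hf B hfB ε hε
  exact ⟨ψ, hs.continuous.measurable, hb, h1, hyp ψ hs hc⟩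

end Vale.Agent.P157
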