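import Vale.Agent.Lib.P157.Defs

/-!
# P157: elementary inequalities and the Gaussian projection lemma
-/

namespace Vale.Agent.P157

open MeasureTheory ProbabilityTheory

theorem abs_exp_sub_exp_le {s t B : ℝ} (hs : s ≤ B) (ht : t ≤ B) :
    |Real.exp s - Real.exp t| ≤ Real.exp B * |s - t| := by
  wlog h : t ≤ s generalizing s t
  · have := this ht hs (le_of_not_ge h)
    rwa [abs_sub_comm, abs_sub_comm s t]
  have h1 : Real.exp s - Real.exp t = Real.exp s * (1 - Real.exp (t - s)) := by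
    rw [mul_sub, mul_one, ← Real.exp_add]; congr 2; ring
  have h2 : 1 - Real.exp (t - s) ≤ s - t := by
    have := Real.add_one_le_exp (t - s); linarith
  have h3 : 0 ≤ 1 - Real.exp (t - s) := by
    have : Real.exp (t - s) ≤ 1 := Real.exp_le_one_iff.mpr (by linarith)
    linarith
  rw [abs_of_nonneg (by rw [h1]; exact mul_nonneg (Real.exp_pos _).le h3),
    abs_of_nonneg (by linarith), h1]
  exact mul_le_mul (Real.exp_le_exp.mpr hs) h2 h3 (Real.exp_pos _).le

theorem abs_log_sub_log_le {a b c : ℝ} (hc : 0 < c) (ha : c ≤ a) (hb : c ≤ b) :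
    |Real.log a - Real.log b| ≤ |a - b| / c := by
  have ha' : 0 < a := lt_of_lt_of_le hc ha
  have hb' : 0 < b := lt_of_lt_of_le hc hb
  wlog h : b ≤ a generalizing a b
  · have := this hb ha hb' ha' (le_of_not_ge h)
    rwa [abs_sub_comm, abs_sub_comm a b]
  have h1 : Real.log a - Real.log b = Real.log (a / b) := (Real.log_div ha'.ne' hb'.ne').symm
  have h2 : Real.log (a / b) ≤ a / b - 1 := Real.log_le_sub_one_of_pos (div_pos ha' hb')
  have h3 : 0 ≤ Real.log (a / b) := Real.log_nonneg ((one_le_div hb').mpr h)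
  rw [h1, abs_of_nonneg h3, abs_of_nonneg (by linarith)]
  calc Real.log (a / b) ≤ a / b - 1 := h2
    _ = (a - b) / b := by field_simp
    _ ≤ (a - b) / c := div_le_div_of_nonneg_left (by linarith) hc hb

/-- law of a normalized linear functional under the standard Gaussian -/
theorem map_inner_stdGaussian {N : ℕ} (hN : 0 < N) (x : E N) (hx : ‖x‖ ^ 2 = N) :
    (stdGaussian (E N)).map (fun y => inner ℝ y x / Real.sqrt N) = gaussianReal 0 1 := by
  have hsq : 0 < Real.sqrt N := Real.sqrt_pos.mpr (by exact_mod_cast hN)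
  let L : StrongDual ℝ (E N) := (1 / Real.sqrt N) • innerSL ℝ x
  have hL : (fun y => inner ℝ y x / Real.sqrt N) = L := by
    ext y
    simp [L, innerSL_apply_apply, real_inner_comm, div_eq_inv_mul]
  have hnorm : ‖L‖ = 1 := by
    simp only [L, norm_smul, innerSL_apply_norm]
    have : ‖x‖ = Real.sqrt N := by
      rw [← hx, Real.sqrt_sq (norm_nonneg _)]
    rw [this, Real.norm_eq_abs, abs_of_pos (by positivity)]
    field_simp
  rw [hL, IsGaussian.map_eq_gaussianReal L, integral_strongDual_stdGaussian,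
    variance_dual_stdGaussian, hnorm]
  simp

theorem integrable_of_bdd {X : Type*} [MeasurableSpace X] (μ : Measure X) [IsFiniteMeasure μ]
    (f : X → ℝ) (hf : Measurable f) (C : ℝ) (hC : ∀ x, |f x| ≤ C) : Integrable f μ :=
  Integrable.of_bound hf.aestronglyMeasurable C (Filter.Eventually.of_forall hC)

/-- The deterministic one-pattern comparison. -/
theorem log_integral_diff {X : Type*} [MeasurableSpace X] (μ : Measure X) [IsProbabilityMeasure μ]
    (W φ φ' : X → ℝ) (hW : Measurable W) (hφ : Measurable φ) (hφ' : Measurable φ')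
    (c C B : ℝ) (hc : 0 < c) (hWl : ∀ x, c ≤ W x) (hWu : ∀ x, W x ≤ C)
    (hB : ∀ x, |φ x| ≤ B) (hB' : ∀ x, |φ' x| ≤ B) :
    |Real.log (∫ x, W x * Real.exp (φ x) ∂μ) - Real.log (∫ x, W x * Real.exp (φ' x) ∂μ)|
      ≤ Real.exp (2 * B) * ((∫ x, W x * |φ x - φ' x| ∂μ) / ∫ x, W x ∂μ) := by
  have hWpos : ∀ x, 0 < W x := fun x => lt_of_lt_of_le hc (hWl x)
  have hWabs : ∀ x, |W x| ≤ C := fun x => by rw [abs_of_pos (hWpos x)]; exact hWu x
  have hC : 0 ≤ C := le_trans hc.le (le_trans (hWl (Classical.choice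
    (by
      by_contra hemp
      rw [not_nonempty_iff] at hemp
      have : μ Set.univ = 0 := by rw [Set.univ_eq_empty_iff.mpr hemp]; simp
      simp at this))) (hWu _))
  have iW : Integrable W μ := integrable_of_bdd μ W hW C hWabs
  have hexpb : ∀ (ψ : X → ℝ), (∀ x, |ψ x| ≤ B) → ∀ x, |W x * Real.exp (ψ x)| ≤ C * Real.exp B := by
    intro ψ hψ x
    rw [abs_mul, abs_of_pos (Real.exp_pos _)]
    exact mul_le_mul (hWabs x) (Real.exp_le_exp.mpr (le_trans (le_abs_self _) (hψ x)))
      (Real.exp_pos _).le hC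
  have i1 : Integrable (fun x => W x * Real.exp (φ x)) μ :=
    integrable_of_bdd μ _ (hW.mul hφ.exp) _ (hexpb φ hB)
  have i2 : Integrable (fun x => W x * Real.exp (φ' x)) μ :=
    integrable_of_bdd μ _ (hW.mul hφ'.exp) _ (hexpb φ' hB')
  have i3 : Integrable (fun x => W x * |φ x - φ' x|) μ := by
    refine integrable_of_bdd μ _ (hW.mul (hφ.sub hφ').abs) (C * (2 * B)) ?_
    intro x
    rw [abs_mul, abs_abs]
    refine mul_le_mul (hWabs x) ?_ (abs_nonneg _) hC
    calc |φ x - φ' x| ≤ |φ x| + |φ' x| := abs_sub _ _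
      _ ≤ 2 * B := by linarith [hB x, hB' x]
  have hI : 0 < ∫ x, W x ∂μ := by
    have : c ≤ ∫ x, W x ∂μ := by
      calc c = ∫ _x, c ∂μ := by simp
        _ ≤ ∫ x, W x ∂μ := integral_mono (integrable_const c) iW hWl
    linarith
  set I := ∫ x, W x ∂μ with hIdef
  have low : ∀ (ψ : X → ℝ), (∀ x, |ψ x| ≤ B) → Integrable (fun x => W x * Real.exp (ψ x)) μ →
      Real.exp (-B) * I ≤ ∫ x, W x * Real.exp (ψ x) ∂μ := by
    intro ψ hψ iψ
    rw [hIdef, ← integral_const_mul]
    refine integral_mono (iW.const_mul _) iψ fun x => ?_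
    rw [mul_comm]
    exact mul_le_mul_of_nonneg_left
      (Real.exp_le_exp.mpr (by linarith [neg_abs_le (ψ x), hψ x])) (hWpos x).le
  have hdiff : |(∫ x, W x * Real.exp (φ x) ∂μ) - ∫ x, W x * Real.exp (φ' x) ∂μ|
      ≤ Real.exp B * ∫ x, W x * |φ x - φ' x| ∂μ := by
    rw [← integral_sub i1 i2, ← integral_const_mul]
    refine le_trans (abs_integral_le_integral_abs) ?_
    refine integral_mono (i1.sub i2).abs (i3.const_mul _) fun x => ?_
    simp only [Pi.sub_apply]
    rw [← mul_sub, abs_mul, abs_of_pos (hWpos x)]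
    calc W x * |Real.exp (φ x) - Real.exp (φ' x)|
        ≤ W x * (Real.exp B * |φ x - φ' x|) :=
          mul_le_mul_of_nonneg_left (abs_exp_sub_exp_le (le_trans (le_abs_self _) (hB x))
            (le_trans (le_abs_self _) (hB' x))) (hWpos x).le
      _ = Real.exp B * (W x * |φ x - φ' x|) := by ring
  have hcpos : 0 < Real.exp (-B) * I := mul_pos (Real.exp_pos _) hI
  refine le_trans (abs_log_sub_log_le hcpos (low φ hB i1) (low φ' hB' i2)) ?_
  calc |(∫ x, W x * Real.exp (φ x) ∂μ) - ∫ x, W x * Real.exp (φ' x) ∂μ| / (Real.exp (-B) * I)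
      ≤ (Real.exp B * ∫ x, W x * |φ x - φ' x| ∂μ) / (Real.exp (-B) * I) :=
        div_le_div_of_nonneg_right hdiff hcpos.le
    _ = Real.exp (2 * B) * ((∫ x, W x * |φ x - φ' x| ∂μ) / I) := by
        have : Real.exp (2 * B) = Real.exp B / Real.exp (-B) := by
          rw [← Real.exp_sub]; congr 1; ring
        rw [this]
        have h1 := (Real.exp_pos (-B)).ne'
        field_simp

end Vale.Agent.P157
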