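import Mathlib

/-!
# P157: Gaussian perceptron models, basic definitions
-/

namespace Vale.Agent.P157

open MeasureTheory ProbabilityTheory

/-- Euclidean space of dimension `N`. -/
abbrev E (N : ℕ) := EuclideanSpace ℝ (Fin N)

/-- The partition function `∫ exp (∑_a f (g^a · x / √N)) dμ(x)` of the perceptron model with
configuration measure `μ` on `ℝ^N`, log-potential `f` and patterns `g^1, ..., g^M`. -/
noncomputable def partitionFn {N M : ℕ} (μ : Measure (E N)) (f : ℝ → ℝ) (g : Fin M → E N) : ℝ :=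
  ∫ x, Real.exp (∑ a, f (inner ℝ (g a) x / Real.sqrt N)) ∂μ

/-- The pressure `p_N(f) = (1/N) log ∫ exp (∑_a f (g^a · x / √N)) dμ(x)`. -/
noncomputable def pressure {N M : ℕ} (μ : Measure (E N)) (f : ℝ → ℝ) (g : Fin M → E N) : ℝ :=
  (1 / (N : ℝ)) * Real.log (partitionFn μ f g)

/-- The mean pressure `𝔼 p_N(f)`, for `M = ⌊α N⌋` independent standard Gaussian patterns in
`ℝ^N`. -/
noncomputable def meanPressure (α : ℝ) (N : ℕ) (μ : Measure (E N)) (f : ℝ → ℝ) : ℝ :=
  ∫ g, pressure μ f g ∂(Measure.pi fun _ : Fin ⌊α * N⌋₊ => stdGaussian (E N))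

end Vale.Agent.P157
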