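import Vale.Agent.Lib.P157.Lipschitz

/-!
# P157: consequences of the Lipschitz bound for the existence of the limit
-/

namespace Vale.Agent.P157

open MeasureTheory ProbabilityTheory Filter Topology

/-- Uniform version of the Lipschitz bound (constant `α e^{2B}`, for every `N`). -/
theorem meanPressure_lipschitz' (α : ℝ) (hα : 0 ≤ α) (N : ℕ) (μ : Measure (E N))
    (hμ : 0 < N → IsProbabilityMeasure μ ∧ ∀ᵐ x ∂μ, ‖x‖ ^ 2 = N) (f h : ℝ → ℝ)
    (hf : Measurable f) (hh : Measurable h) (B : ℝ) (hfB : ∀ t, |f t| ≤ B)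
    (hhB : ∀ t, |h t| ≤ B) :
    |meanPressure α N μ f - meanPressure α N μ h|
      ≤ α * Real.exp (2 * B) * ∫ t, |f t - h t| ∂(gaussianReal 0 1) := by
  have hint : 0 ≤ ∫ t, |f t - h t| ∂(gaussianReal 0 1) := integral_nonneg fun t => abs_nonneg _
  rcases Nat.eq_zero_or_pos N with rfl | hN
  · have : |meanPressure α 0 μ f - meanPressure α 0 μ h| = 0 := by
      simp [meanPressure, pressure]
    rw [this]
    positivity
  obtain ⟨hp, hae⟩ := hμ hN
  have hNR : (0 : ℝ) < N := by exact_mod_cast hN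
  refine le_trans (meanPressure_lipschitz α N μ hae f h hf hh B hfB hhB) ?_
  have h1 : ((⌊α * N⌋₊ : ℝ) / N) ≤ α := by
    rw [div_le_iff₀ hNR]
    exact Nat.floor_le (by positivity)
  exact mul_le_mul_of_nonneg_right (mul_le_mul_of_nonneg_right h1 (Real.exp_pos _).le) hint

/-- If `f` can be approximated in `L¹(γ)`, with a uniform sup bound, by potentials for which the
limit of the mean pressure exists, then the limit exists for `f`. -/
theorem limit_exists_of_approx (α : ℝ) (hα : 0 ≤ α) (μ : (N : ℕ) → Measure (E N))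
    (hμ : ∀ N, 0 < N → IsProbabilityMeasure (μ N) ∧ ∀ᵐ x ∂(μ N), ‖x‖ ^ 2 = N) (f : ℝ → ℝ)
    (hf : Measurable f) (B : ℝ) (hfB : ∀ t, |f t| ≤ B)
    (hyp : ∀ ε : ℝ, 0 < ε → ∃ ψ : ℝ → ℝ, Measurable ψ ∧ (∀ t, |ψ t| ≤ B) ∧
      ∫ t, |f t - ψ t| ∂(gaussianReal 0 1) ≤ ε ∧
      ∃ ℓ : ℝ, Tendsto (fun N => meanPressure α N (μ N) ψ) atTop (𝓝 ℓ)) :
    ∃ ℓ : ℝ, Tendsto (fun N => meanPressure α N (μ N) f) atTop (𝓝 ℓ) := by
  apply cauchySeq_tendsto_of_complete
  rw [Metric.cauchySeq_iff]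
  intro ε hε
  set c := α * Real.exp (2 * B) + 1 with hc
  have hcpos : 0 < c := by positivity
  obtain ⟨ψ, hψm, hψB, hψ1, ℓ, hℓ⟩ := hyp (ε / (3 * c)) (by positivity)
  have hcau := hℓ.cauchySeq
  rw [Metric.cauchySeq_iff] at hcau
  obtain ⟨N0, hN0⟩ := hcau (ε / 3) (by positivity)
  refine ⟨N0, fun m hm n hn => ?_⟩
  have key : ∀ N, |meanPressure α N (μ N) f - meanPressure α N (μ N) ψ| ≤ ε / 3 := by
    intro N
    refine le_trans (meanPressure_lipschitz' α hα N (μ N) (hμ N) f ψ hf hψm B hfB hψB) ?_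
    calc α * Real.exp (2 * B) * ∫ t, |f t - ψ t| ∂(gaussianReal 0 1)
        ≤ c * (ε / (3 * c)) := by
          refine mul_le_mul (by rw [hc]; linarith) hψ1
            (integral_nonneg fun t => abs_nonneg _) hcpos.le
      _ = ε / 3 := by field_simp
  have h1 := key m
  have h2 := key n
  have h3 := hN0 m hm n hn
  rw [Real.dist_eq] at h3 ⊢
  have h4 : meanPressure α m (μ m) f - meanPressure α n (μ n) f
      = (meanPressure α m (μ m) f - meanPressure α m (μ m) ψ)
        + (meanPressure α m (μ m) ψ - meanPressure α n (μ n) ψ)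
        - (meanPressure α n (μ n) f - meanPressure α n (μ n) ψ) := by ring
  rw [h4]
  rw [abs_le] at h1 h2
  rw [abs_lt] at h3 ⊢
  constructor <;> linarith [h1.1, h1.2, h2.1, h2.2, h3.1, h3.2]

end Vale.Agent.P157
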