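import Vale.Agent.Lib.P157.Marginal

/-!
# P157: the `L¹(γ)`-Lipschitz bound for the mean pressure
-/

namespace Vale.Agent.P157

open MeasureTheory ProbabilityTheory

variable {N M : ℕ}

/-- the law of the `M` patterns -/
noncomputable abbrev patLaw (N M : ℕ) : Measure (Fin M → E N) :=
  Measure.pi fun _ : Fin M => stdGaussian (E N)

theorem measurable_logdiff (μ : Measure (E N)) [IsProbabilityMeasure μ]
    (F F' : Fin M → ℝ → ℝ) (hF : ∀ a, Measurable (F a)) (hF' : ∀ a, Measurable (F' a)) :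
    Measurable (fun g => |Real.log (genZ μ F g) - Real.log (genZ μ F' g)|) :=
  ((measurable_genZ μ F hF).log.sub (measurable_genZ μ F' hF').log).abs

theorem logdiff_le (μ : Measure (E N)) [IsProbabilityMeasure μ]
    (F F' : Fin M → ℝ → ℝ) (hF : ∀ a, Measurable (F a)) (hF' : ∀ a, Measurable (F' a))
    (B : ℝ) (hB0 : 0 ≤ B) (hB : ∀ a t, |F a t| ≤ B) (hB' : ∀ a t, |F' a t| ≤ B)
    (g : Fin M → E N) :
    |Real.log (genZ μ F g) - Real.log (genZ μ F' g)| ≤ M * B + M * B :=
  calc _ ≤ |Real.log (genZ μ F g)| + |Real.log (genZ μ F' g)| := abs_sub _ _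
    _ ≤ M * B + M * B := add_le_add (abs_log_genZ_le μ F hF B hB0 hB _)
        (abs_log_genZ_le μ F' hF' B hB0 hB' _)

theorem integrable_log_genZ (μ : Measure (E N)) [IsProbabilityMeasure μ]
    (F : Fin M → ℝ → ℝ) (hF : ∀ a, Measurable (F a)) (B : ℝ) (hB0 : 0 ≤ B)
    (hB : ∀ a t, |F a t| ≤ B) : Integrable (fun g => Real.log (genZ μ F g)) (patLaw N M) :=
  integrable_of_bdd _ _ (measurable_genZ μ F hF).log (M * B)
    (abs_log_genZ_le μ F hF B hB0 hB)

/-- Changing the potential of the single pattern `k`. -/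
theorem single_site (hN : 0 < N) (μ : Measure (E N)) [IsProbabilityMeasure μ]
    (hμ : ∀ᵐ x ∂μ, ‖x‖ ^ 2 = N) (F F' : Fin M → ℝ → ℝ) (hF : ∀ a, Measurable (F a))
    (hF' : ∀ a, Measurable (F' a)) (B : ℝ) (hB0 : 0 ≤ B) (hB : ∀ a t, |F a t| ≤ B)
    (hB' : ∀ a t, |F' a t| ≤ B) (k : Fin M) (hag : ∀ a, a ≠ k → F a = F' a) :
    |(∫ g, Real.log (genZ μ F g) ∂(patLaw N M)) - ∫ g, Real.log (genZ μ F' g) ∂(patLaw N M)|
      ≤ Real.exp (2 * B) * ∫ t, |F k t - F' k t| ∂(gaussianReal 0 1) := by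
  classical
  set c := Real.exp (2 * B) * ∫ t, |F k t - F' k t| ∂(gaussianReal 0 1) with hc
  set D : (Fin M → E N) → ℝ := fun g => |Real.log (genZ μ F g) - Real.log (genZ μ F' g)| with hD
  have hDm : Measurable D := measurable_logdiff μ F F' hF hF'
  have hDb : ∀ g, |D g| ≤ M * B + M * B := fun g => by
    rw [hD]; simp only [abs_abs]; exact logdiff_le μ F F' hF hF' B hB0 hB hB' g
  have hDi : Integrable D (patLaw N M) := integrable_of_bdd _ _ hDm _ hDb
  have i1 := integrable_log_genZ μ F hF B hB0 hB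
  have i2 := integrable_log_genZ μ F' hF' B hB0 hB'
  have h1 : |(∫ g, Real.log (genZ μ F g) ∂(patLaw N M))
      - ∫ g, Real.log (genZ μ F' g) ∂(patLaw N M)| ≤ ∫ g, D g ∂(patLaw N M) := by
    rw [← integral_sub i1 i2]
    exact abs_integral_le_integral_abs
  refine le_trans h1 ?_
  have hc0 : 0 ≤ c := mul_nonneg (Real.exp_pos _).le (integral_nonneg fun t => abs_nonneg _)
  have h2 : ∫⁻ g, ENNReal.ofReal (D g) ∂(patLaw N M) ≤ ∫⁻ _g, ENNReal.ofReal c ∂(patLaw N M) := by
    refine lintegral_le_of_lmarginal_le (μ := fun _ : Fin M => stdGaussian (E N)) {k}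
      hDm.ennreal_ofReal measurable_const ?_
    intro g
    rw [lmarginal_singleton, lmarginal_singleton]
    simp only [lintegral_const, measure_univ, mul_one]
    have hi : Integrable (fun y => D (Function.update g k y)) (stdGaussian (E N)) :=
      integrable_of_bdd _ _ (hDm.comp (measurable_update g (a := k))) _ fun y => hDb _
    rw [← ofReal_integral_eq_lintegral_ofReal hi
      (Filter.Eventually.of_forall fun y => abs_nonneg _)]
    exact ENNReal.ofReal_le_ofReal
      (marginal_bound hN μ hμ F F' hF hF' B hB0 hB hB' k hag g)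
  rw [← ofReal_integral_eq_lintegral_ofReal hDi
    (Filter.Eventually.of_forall fun y => abs_nonneg _)] at h2
  simp only [lintegral_const, measure_univ, mul_one] at h2
  exact (ENNReal.ofReal_le_ofReal_iff hc0).mp h2

/-- hybrid potentials: `h` on the first `j` patterns, `f` on the others. -/
def hybrid (M : ℕ) (f h : ℝ → ℝ) (j : ℕ) : Fin M → ℝ → ℝ := fun a => if a.val < j then h else f

theorem telescope (hN : 0 < N) (μ : Measure (E N)) [IsProbabilityMeasure μ]
    (hμ : ∀ᵐ x ∂μ, ‖x‖ ^ 2 = N) (f h : ℝ → ℝ) (hf : Measurable f) (hh : Measurable h)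
    (B : ℝ) (hB0 : 0 ≤ B) (hfB : ∀ t, |f t| ≤ B) (hhB : ∀ t, |h t| ≤ B) (j : ℕ) (hj : j ≤ M) :
    |(∫ g, Real.log (genZ μ (hybrid M f h 0) g) ∂(patLaw N M))
        - ∫ g, Real.log (genZ μ (hybrid M f h j) g) ∂(patLaw N M)|
      ≤ j * (Real.exp (2 * B) * ∫ t, |f t - h t| ∂(gaussianReal 0 1)) := by
  have hm : ∀ j a, Measurable (hybrid M f h j a) := by
    intro j a; unfold hybrid; split_ifs <;> assumption
  have hb : ∀ j a t, |hybrid M f h j a t| ≤ B := by
    intro j a t; unfold hybrid; split_ifs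
    · exact hhB t
    · exact hfB t
  induction j with
  | zero => simp
  | succ j ih =>
    have hjM : j < M := hj
    have step := single_site hN μ hμ (hybrid M f h j) (hybrid M f h (j + 1)) (hm j) (hm (j + 1))
      B hB0 (hb j) (hb (j + 1)) ⟨j, hjM⟩ (by
        intro a ha
        have hne : a.val ≠ j := fun hh' => ha (Fin.ext hh')
        unfold hybrid
        by_cases h1 : a.val < j
        · have h2 : a.val < j + 1 := by omega
          simp [h1, h2]
        · have h2 : ¬ a.val < j + 1 := by omega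
          simp [h1, h2])
    have e1 : hybrid M f h j ⟨j, hjM⟩ = f := by simp [hybrid]
    have e2 : hybrid M f h (j + 1) ⟨j, hjM⟩ = h := by simp [hybrid]
    rw [e1, e2] at step
    have ih' := ih (by omega)
    push_cast
    calc _ ≤ |(∫ g, Real.log (genZ μ (hybrid M f h 0) g) ∂(patLaw N M))
              - ∫ g, Real.log (genZ μ (hybrid M f h j) g) ∂(patLaw N M)|
            + |(∫ g, Real.log (genZ μ (hybrid M f h j) g) ∂(patLaw N M))
              - ∫ g, Real.log (genZ μ (hybrid M f h (j + 1)) g) ∂(patLaw N M)| :=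
          abs_sub_le _ _ _
      _ ≤ _ := by linarith

/-- **`L¹(γ)`-Lipschitz bound** for `𝔼 log Z`. -/
theorem log_partition_lipschitz (hN : 0 < N) (μ : Measure (E N)) [IsProbabilityMeasure μ]
    (hμ : ∀ᵐ x ∂μ, ‖x‖ ^ 2 = N) (f h : ℝ → ℝ) (hf : Measurable f) (hh : Measurable h)
    (B : ℝ) (hfB : ∀ t, |f t| ≤ B) (hhB : ∀ t, |h t| ≤ B) :
    |(∫ g, Real.log (partitionFn μ f g) ∂(patLaw N M))
        - ∫ g, Real.log (partitionFn μ h g) ∂(patLaw N M)|
      ≤ M * (Real.exp (2 * B) * ∫ t, |f t - h t| ∂(gaussianReal 0 1)) := by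
  have hB0 : 0 ≤ B := le_trans (abs_nonneg _) (hfB 0)
  have := telescope (M := M) hN μ hμ f h hf hh B hB0 hfB hhB M le_rfl
  have e0 : hybrid M f h 0 = fun _ => f := by funext a; simp [hybrid]
  have eM : hybrid M f h M = fun _ => h := by funext a; simp [hybrid]
  rw [e0, eM] at this
  exact this

/-- **`L¹(γ)`-Lipschitz bound** for the mean pressure. -/
theorem meanPressure_lipschitz (α : ℝ) (N : ℕ) (μ : Measure (E N)) [IsProbabilityMeasure μ]
    (hμ : ∀ᵐ x ∂μ, ‖x‖ ^ 2 = N) (f h : ℝ → ℝ) (hf : Measurable f) (hh : Measurable h)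
    (B : ℝ) (hfB : ∀ t, |f t| ≤ B) (hhB : ∀ t, |h t| ≤ B) :
    |meanPressure α N μ f - meanPressure α N μ h|
      ≤ ((⌊α * N⌋₊ : ℝ) / N) * Real.exp (2 * B) * ∫ t, |f t - h t| ∂(gaussianReal 0 1) := by
  rcases Nat.eq_zero_or_pos N with rfl | hN
  · simp [meanPressure, pressure]
  have hNR : (0 : ℝ) < N := by exact_mod_cast hN
  have key := log_partition_lipschitz (M := ⌊α * N⌋₊) hN μ hμ f h hf hh B hfB hhB
  unfold meanPressure pressure
  rw [integral_const_mul, integral_const_mul, ← mul_sub, abs_mul, abs_of_pos (by positivity)]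
  calc 1 / (N : ℝ) * _ ≤ 1 / (N : ℝ) * _ := mul_le_mul_of_nonneg_left key (by positivity)
    _ = _ := by ring

end Vale.Agent.P157
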