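import Vale.Agent.Lib.P157.Single

/-!
# P157: integrating out one pattern
-/

namespace Vale.Agent.P157

open MeasureTheory ProbabilityTheory

variable {N M : ℕ}

/-- Averaging over the pattern `k` alone. -/
theorem marginal_bound (hN : 0 < N) (μ : Measure (E N)) [IsProbabilityMeasure μ]
    (hμ : ∀ᵐ x ∂μ, ‖x‖ ^ 2 = N) (F F' : Fin M → ℝ → ℝ) (hF : ∀ a, Measurable (F a))
    (hF' : ∀ a, Measurable (F' a)) (B : ℝ) (hB0 : 0 ≤ B) (hB : ∀ a t, |F a t| ≤ B)
    (hB' : ∀ a t, |F' a t| ≤ B) (k : Fin M) (hag : ∀ a, a ≠ k → F a = F' a) (g : Fin M → E N) :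
    ∫ y, |Real.log (genZ μ F (Function.update g k y))
        - Real.log (genZ μ F' (Function.update g k y))| ∂(stdGaussian (E N))
      ≤ Real.exp (2 * B) * ∫ t, |F k t - F' k t| ∂(gaussianReal 0 1) := by
  set γ := stdGaussian (E N) with hγ
  set Δ : ℝ → ℝ := fun t => |F k t - F' k t| with hΔ
  have hΔm : Measurable Δ := ((hF k).sub (hF' k)).abs
  have hΔb : ∀ t, |Δ t| ≤ 2 * B := by
    intro t
    simp only [hΔ, abs_abs]
    calc |F k t - F' k t| ≤ |F k t| + |F' k t| := abs_sub _ _
      _ ≤ 2 * B := by linarith [hB k t, hB' k t]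
  have hΔ0 : ∀ t, 0 ≤ Δ t := fun t => abs_nonneg _
  set W : E N → ℝ := wt F k g with hW
  have hWF' : wt F' k g = W := by
    funext x
    simp only [hW, wt]
    congr 1
    refine Finset.sum_congr rfl fun a ha => ?_
    rw [hag a (Finset.ne_of_mem_erase ha)]
  have hWm : Measurable W := measurable_wt F hF k g
  have hWl : ∀ x, Real.exp (-(M * B)) ≤ W x := wt_lower F B hB0 hB k g
  have hWu : ∀ x, W x ≤ Real.exp (M * B) := wt_upper F B hB0 hB k g
  have hWpos : ∀ x, 0 < W x := fun x => lt_of_lt_of_le (Real.exp_pos _) (hWl x)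
  have iW : Integrable W μ := integrable_of_bdd μ W hWm _ fun x => by
    rw [abs_of_pos (hWpos x)]; exact hWu x
  have hI : 0 < ∫ x, W x ∂μ := by
    have : Real.exp (-(M * B)) ≤ ∫ x, W x ∂μ := by
      calc Real.exp (-(M * B)) = ∫ _x, Real.exp (-(M * B)) ∂μ := by simp
        _ ≤ ∫ x, W x ∂μ := integral_mono (integrable_const _) iW hWl
    exact lt_of_lt_of_le (Real.exp_pos _) this
  set I := ∫ x, W x ∂μ with hIdef
  -- the scalar product map
  have hSm : Measurable (fun p : E N × E N => inner ℝ p.1 p.2 / Real.sqrt N) :=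
    (Measurable.inner measurable_fst measurable_snd).div_const _
  have hSy : ∀ y : E N, Measurable (fun x : E N => inner ℝ y x / Real.sqrt N) := fun y =>
    (Measurable.inner measurable_const measurable_id).div_const _
  have hSx : ∀ x : E N, Measurable (fun y : E N => inner ℝ y x / Real.sqrt N) := fun x =>
    (Measurable.inner measurable_id measurable_const).div_const _
  -- pointwise bound
  set J : E N → ℝ := fun y => ∫ x, W x * Δ (inner ℝ y x / Real.sqrt N) ∂μ with hJ
  have hpt : ∀ y, |Real.log (genZ μ F (Function.update g k y))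
        - Real.log (genZ μ F' (Function.update g k y))| ≤ Real.exp (2 * B) * (J y / I) := by
    intro y
    rw [genZ_update, genZ_update, hWF']
    exact log_integral_diff μ W _ _ hWm ((hF k).comp (hSy y)) ((hF' k).comp (hSy y))
      (Real.exp (-(M * B))) (Real.exp (M * B)) B (Real.exp_pos _) hWl hWu
      (fun x => hB k _) (fun x => hB' k _)
  -- joint integrability
  have hjm : Measurable (fun p : E N × E N => W p.2 * Δ (inner ℝ p.1 p.2 / Real.sqrt N)) :=
    (hWm.comp measurable_snd).mul (hΔm.comp hSm)
  have hji : Integrable (fun p : E N × E N => W p.2 * Δ (inner ℝ p.1 p.2 / Real.sqrt N))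
      (γ.prod μ) := by
    refine integrable_of_bdd _ _ hjm (Real.exp (M * B) * (2 * B)) fun p => ?_
    rw [abs_mul, abs_of_pos (hWpos _)]
    exact mul_le_mul (hWu _) (hΔb _) (abs_nonneg _) (Real.exp_pos _).le
  have hJint : ∫ y, J y ∂γ = I * ∫ t, Δ t ∂(gaussianReal 0 1) := by
    simp only [hJ]
    rw [integral_integral_swap (f := fun y x => W x * Δ (inner ℝ y x / Real.sqrt N)) hji]
    rw [hIdef, ← integral_mul_const]
    refine integral_congr_ae ?_
    filter_upwards [hμ] with x hx
    rw [integral_const_mul]
    congr 1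
    rw [← map_inner_stdGaussian hN x hx,
      integral_map (hSx x).aemeasurable hΔm.aestronglyMeasurable]
  have hJi : Integrable J γ := hji.integral_prod_left
  have hDm : Measurable (fun y => |Real.log (genZ μ F (Function.update g k y))
        - Real.log (genZ μ F' (Function.update g k y))|) := by
    have h1 := (measurable_genZ μ F hF).comp (measurable_update g (a := k))
    have h2 := (measurable_genZ μ F' hF').comp (measurable_update g (a := k))
    exact (h1.log.sub h2.log).abs
  have hDi : Integrable (fun y => |Real.log (genZ μ F (Function.update g k y))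
        - Real.log (genZ μ F' (Function.update g k y))|) γ := by
    refine integrable_of_bdd _ _ hDm (M * B + M * B) fun y => ?_
    rw [abs_abs]
    calc _ ≤ |Real.log (genZ μ F (Function.update g k y))|
          + |Real.log (genZ μ F' (Function.update g k y))| := abs_sub _ _
      _ ≤ M * B + M * B := add_le_add (abs_log_genZ_le μ F hF B hB0 hB _)
          (abs_log_genZ_le μ F' hF' B hB0 hB' _)
  calc ∫ y, |Real.log (genZ μ F (Function.update g k y))
        - Real.log (genZ μ F' (Function.update g k y))| ∂γ
      ≤ ∫ y, Real.exp (2 * B) * (J y / I) ∂γ :=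
        integral_mono hDi ((hJi.div_const I).const_mul _) hpt
    _ = Real.exp (2 * B) * ∫ t, Δ t ∂(gaussianReal 0 1) := by
        rw [integral_const_mul, integral_div, hJint]
        field_simp

end Vale.Agent.P157
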