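import Vale.Agent.Lib.P157.Defs

/-!
# P157: the two configuration spaces
-/

namespace Vale.Agent.P157

open MeasureTheory ProbabilityTheory
open scoped ENNReal

/-- The uniform probability measure on the Ising cube `{-1,1}^N`, seen inside `ℝ^N`: the
normalized sum of the Dirac masses at the `2^N` sign vectors. -/
noncomputable def cubeMeasure (N : ℕ) : Measure (E N) :=
  ((2 : ℝ≥0∞) ^ N)⁻¹ • ∑ s : Fin N → Bool,
    Measure.dirac (WithLp.toLp 2 fun i => if s i then (1 : ℝ) else -1)

/-- The normalized surface measure on the sphere `{x : ‖x‖² = N}` of `ℝ^N`: the surface measure of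
the unit sphere, normalized to total mass one and transported by the dilation `x ↦ √N x`. -/
noncomputable def sphereMeasure (N : ℕ) : Measure (E N) :=
  (((volume : Measure (E N)).toSphere Set.univ)⁻¹ • (volume : Measure (E N)).toSphere).map
    fun x : Metric.sphere (0 : E N) 1 => Real.sqrt N • (x : E N)

end Vale.Agent.P157
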