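import Vale.Agent.Lib.P157.Models

/-!
# P157: both configuration measures are probability measures carried by `‖x‖² = N`
-/

namespace Vale.Agent.P157

open MeasureTheory ProbabilityTheory
open scoped ENNReal

theorem cubeMeasure_prob (N : ℕ) : IsProbabilityMeasure (cubeMeasure N) := by
  constructor
  simp only [cubeMeasure, Measure.smul_apply, Measure.coe_finsetSum, Finset.sum_apply,
    measure_univ, Finset.sum_const, Finset.card_univ, Fintype.card_pi, Fintype.card_bool,
    Finset.prod_const, Fintype.card_fin, smul_eq_mul, nsmul_eq_mul, mul_one]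
  push_cast
  exact ENNReal.inv_mul_cancel (by simp) (by simp)

theorem cubeMeasure_ae (N : ℕ) : ∀ᵐ x ∂(cubeMeasure N), ‖x‖ ^ 2 = N := by
  unfold cubeMeasure
  refine Measure.ae_smul_measure ?_ _
  rw [ae_finsetSum_measure_iff]
  intro s _
  have hms : MeasurableSet {x : E N | ‖x‖ ^ 2 = N} :=
    measurableSet_eq_fun (by fun_prop) measurable_const
  rw [ae_dirac_iff hms]
  rw [EuclideanSpace.real_norm_sq_eq]
  have : ∀ i, ((WithLp.toLp 2 fun i => if s i then (1 : ℝ) else -1 : E N) i) ^ 2 = 1 := by
    intro i
    by_cases h : s i <;> simp [h]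
  simp [this]

theorem sphereMeasure_prob (N : ℕ) (hN : 0 < N) : IsProbabilityMeasure (sphereMeasure N) := by
  have : Nonempty (Fin N) := ⟨⟨0, hN⟩⟩
  have : Nontrivial (E N) := inferInstance
  have : NeZero (volume : Measure (E N)).toSphere := by
    constructor
    rw [Ne, Measure.toSphere_eq_zero_iff]
    exact not_subsingleton _
  unfold sphereMeasure
  refine Measure.isProbabilityMeasure_map (Measurable.aemeasurable ?_)
  fun_prop

theorem sphereMeasure_ae (N : ℕ) : ∀ᵐ x ∂(sphereMeasure N), ‖x‖ ^ 2 = N := by
  unfold sphereMeasure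
  have hms : MeasurableSet {x : E N | ‖x‖ ^ 2 = N} :=
    measurableSet_eq_fun (by fun_prop) measurable_const
  have hm : Measurable fun x : Metric.sphere (0 : E N) 1 => Real.sqrt N • (x : E N) := by
    fun_prop
  rw [ae_map_iff hm.aemeasurable hms]
  refine Filter.Eventually.of_forall fun x => ?_
  rw [norm_smul, norm_eq_of_mem_sphere, mul_one, Real.norm_eq_abs, sq_abs,
    Real.sq_sqrt (Nat.cast_nonneg N)]

end Vale.Agent.P157
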