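import Vale.Agent.Lib.P157.Basic

/-!
# P157: changing the potential of one pattern
-/

namespace Vale.Agent.P157

open MeasureTheory ProbabilityTheory

/-- partition function with pattern-dependent potentials -/
noncomputable def genZ {N M : ℕ} (μ : Measure (E N)) (F : Fin M → ℝ → ℝ) (g : Fin M → E N) : ℝ :=
  ∫ x, Real.exp (∑ a, F a (inner ℝ (g a) x / Real.sqrt N)) ∂μ

/-- the Boltzmann weight of all patterns but `k` -/
noncomputable def wt {N M : ℕ} (F : Fin M → ℝ → ℝ) (k : Fin M) (g : Fin M → E N) (x : E N) : ℝ :=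
  Real.exp (∑ a ∈ Finset.univ.erase k, F a (inner ℝ (g a) x / Real.sqrt N))

variable {N M : ℕ}

theorem measurable_integrand (F : Fin M → ℝ → ℝ) (hF : ∀ a, Measurable (F a)) :
    Measurable (fun p : (Fin M → E N) × E N =>
      Real.exp (∑ a, F a (inner ℝ (p.1 a) p.2 / Real.sqrt N))) := by
  refine Real.measurable_exp.comp (Finset.measurable_sum _ fun a _ => (hF a).comp ?_)
  refine Measurable.div_const ?_ _
  exact Measurable.inner ((measurable_pi_apply a).comp measurable_fst) measurable_snd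

theorem measurable_genZ (μ : Measure (E N)) [IsProbabilityMeasure μ] (F : Fin M → ℝ → ℝ)
    (hF : ∀ a, Measurable (F a)) : Measurable (fun g => genZ μ F g) :=
  ((measurable_integrand F hF).stronglyMeasurable.integral_prod_right (ν := μ)).measurable

theorem measurable_wt (F : Fin M → ℝ → ℝ) (hF : ∀ a, Measurable (F a)) (k : Fin M)
    (g : Fin M → E N) : Measurable (wt F k g) := by
  refine Real.measurable_exp.comp (Finset.measurable_sum _ fun a _ => (hF a).comp ?_)
  refine Measurable.div_const ?_ _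
  exact Measurable.inner measurable_const measurable_id

theorem abs_sum_le (F : Fin M → ℝ → ℝ) (B : ℝ) (hB0 : 0 ≤ B) (hB : ∀ a t, |F a t| ≤ B)
    (s : Finset (Fin M)) (z : Fin M → ℝ) : |∑ a ∈ s, F a (z a)| ≤ M * B := by
  calc |∑ a ∈ s, F a (z a)| ≤ ∑ a ∈ s, |F a (z a)| := Finset.abs_sum_le_sum_abs _ _
    _ ≤ ∑ _a ∈ s, B := Finset.sum_le_sum fun a _ => hB a _
    _ = s.card * B := by simp
    _ ≤ M * B := by
        refine mul_le_mul_of_nonneg_right ?_ hB0
        have := s.card_le_univ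
        simp at this
        exact_mod_cast this

theorem wt_lower (F : Fin M → ℝ → ℝ) (B : ℝ) (hB0 : 0 ≤ B) (hB : ∀ a t, |F a t| ≤ B) (k : Fin M)
    (g : Fin M → E N) (x : E N) : Real.exp (-(M * B)) ≤ wt F k g x :=
  Real.exp_le_exp.mpr (neg_le_of_abs_le (abs_sum_le F B hB0 hB _ _))

theorem wt_upper (F : Fin M → ℝ → ℝ) (B : ℝ) (hB0 : 0 ≤ B) (hB : ∀ a t, |F a t| ≤ B) (k : Fin M)
    (g : Fin M → E N) (x : E N) : wt F k g x ≤ Real.exp (M * B) :=
  Real.exp_le_exp.mpr (le_of_abs_le (abs_sum_le F B hB0 hB _ _))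

theorem genZ_update (μ : Measure (E N)) (F : Fin M → ℝ → ℝ) (k : Fin M) (g : Fin M → E N)
    (y : E N) : genZ μ F (Function.update g k y)
      = ∫ x, wt F k g x * Real.exp (F k (inner ℝ y x / Real.sqrt N)) ∂μ := by
  unfold genZ wt
  refine integral_congr_ae (Filter.Eventually.of_forall fun x => ?_)
  simp only
  rw [← Real.exp_add, ← Finset.sum_erase_add _ _ (Finset.mem_univ k)]
  congr 1
  rw [Function.update_self]
  congr 1
  refine Finset.sum_congr rfl fun a ha => ?_
  rw [Function.update_of_ne (Finset.ne_of_mem_erase ha)]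

theorem genZ_bounds (μ : Measure (E N)) [IsProbabilityMeasure μ] (F : Fin M → ℝ → ℝ)
    (hF : ∀ a, Measurable (F a)) (B : ℝ) (hB0 : 0 ≤ B) (hB : ∀ a t, |F a t| ≤ B)
    (g : Fin M → E N) :
    Real.exp (-(M * B)) ≤ genZ μ F g ∧ genZ μ F g ≤ Real.exp (M * B) := by
  have hm : Measurable fun x : E N =>
      Real.exp (∑ a, F a (inner ℝ (g a) x / Real.sqrt N)) := by
    refine Real.measurable_exp.comp (Finset.measurable_sum _ fun a _ => (hF a).comp ?_)
    refine Measurable.div_const ?_ _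
    exact Measurable.inner measurable_const measurable_id
  have hlow : ∀ x : E N, Real.exp (-(M * B)) ≤
      Real.exp (∑ a, F a (inner ℝ (g a) x / Real.sqrt N)) := fun x =>
    Real.exp_le_exp.mpr (neg_le_of_abs_le (abs_sum_le F B hB0 hB _ _))
  have hup : ∀ x : E N, Real.exp (∑ a, F a (inner ℝ (g a) x / Real.sqrt N)) ≤
      Real.exp (M * B) := fun x =>
    Real.exp_le_exp.mpr (le_of_abs_le (abs_sum_le F B hB0 hB _ _))
  have hi : Integrable (fun x : E N =>
      Real.exp (∑ a, F a (inner ℝ (g a) x / Real.sqrt N))) μ :=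
    integrable_of_bdd μ _ hm (Real.exp (M * B)) fun x => by
      rw [abs_of_pos (Real.exp_pos _)]; exact hup x
  constructor
  · calc Real.exp (-(M * B)) = ∫ _x, Real.exp (-(M * B)) ∂μ := by simp
      _ ≤ genZ μ F g := integral_mono (integrable_const _) hi hlow
  · calc genZ μ F g ≤ ∫ _x, Real.exp (M * B) ∂μ := integral_mono hi (integrable_const _) hup
      _ = Real.exp (M * B) := by simp

theorem abs_log_genZ_le (μ : Measure (E N)) [IsProbabilityMeasure μ] (F : Fin M → ℝ → ℝ)
    (hF : ∀ a, Measurable (F a)) (B : ℝ) (hB0 : 0 ≤ B) (hB : ∀ a t, |F a t| ≤ B)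
    (g : Fin M → E N) : |Real.log (genZ μ F g)| ≤ M * B := by
  obtain ⟨h1, h2⟩ := genZ_bounds μ F hF B hB0 hB g
  have hpos : 0 < genZ μ F g := lt_of_lt_of_le (Real.exp_pos _) h1
  rw [abs_le]
  constructor
  · rw [← Real.log_exp (-(M * B))]
    exact Real.log_le_log (Real.exp_pos _) h1
  · rw [← Real.log_exp (M * B)]
    exact Real.log_le_log hpos h2

end Vale.Agent.P157
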